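import Vale.Agent.Lib.P235.Defs

open MeasureTheory

namespace Vale.Agent.Lib.P235

universe u v

/-! ### Integrating a pointwise inequality over `Ω` -/

lemma norm_sub_eq_integral {Ω : Type v} {m : MeasurableSpace Ω} {μ : Measure Ω}
    (f g : Lp ℝ 1 μ) : ‖f - g‖ = ∫ ω, |f ω - g ω| ∂μ := by
  rw [L1.norm_eq_integral_norm]
  apply integral_congr_ae
  filter_upwards [Lp.coeFn_sub f g] with ω hω
  rw [hω]
  simp [Real.norm_eq_abs]

lemma integrable_abs_sub {Ω : Type v} {m : MeasurableSpace Ω} {μ : Measure Ω}
    (f g : Lp ℝ 1 μ) : Integrable (fun ω => |f ω - g ω|) μ := by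
  have hf : Integrable f μ := (memLp_one_iff_integrable.mp (Lp.memLp f))
  have hg : Integrable g μ := (memLp_one_iff_integrable.mp (Lp.memLp g))
  exact (hf.sub hg).abs

/-- A family of linear inequalities between absolute differences, valid pointwise for real
functions, passes to `L_1`. -/
lemma L1_test {V : Type u} {I J : Type*} [Fintype I] [Fintype J]
    {Ω : Type v} {m : MeasurableSpace Ω} {μ : Measure Ω} (f : V → Lp ℝ 1 μ)
    (a b : I → V) (c : I → ℝ) (p q : J → V) (w : J → ℝ)
    (h : ∀ x : V → ℝ, ∑ j, w j * |x (p j) - x (q j)| ≤ ∑ i, c i * |x (a i) - x (b i)|) :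
    ∑ j, w j * ‖f (p j) - f (q j)‖ ≤ ∑ i, c i * ‖f (a i) - f (b i)‖ := by
  have h1 : ∑ j, w j * ‖f (p j) - f (q j)‖
      = ∫ ω, ∑ j, w j * |f (p j) ω - f (q j) ω| ∂μ := by
    rw [integral_finsetSum]
    · refine Finset.sum_congr rfl fun j _ => ?_
      rw [integral_const_mul, norm_sub_eq_integral]
    · intro j _
      exact (integrable_abs_sub _ _).const_mul _
  have h2 : ∑ i, c i * ‖f (a i) - f (b i)‖
      = ∫ ω, ∑ i, c i * |f (a i) ω - f (b i) ω| ∂μ := by
    rw [integral_finsetSum]
    · refine Finset.sum_congr rfl fun i _ => ?_
      rw [integral_const_mul, norm_sub_eq_integral]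
    · intro i _
      exact (integrable_abs_sub _ _).const_mul _
  rw [h1, h2]
  apply integral_mono
  · exact integrable_finsetSum _ fun j _ => (integrable_abs_sub _ _).const_mul _
  · exact integrable_finsetSum _ fun i _ => (integrable_abs_sub _ _).const_mul _
  · intro ω
    exact h (fun v => f v ω)

/-! ### From cuts to real functions -/

/-- Threshold decomposition: a linear combination (with arbitrary real coefficients) of absolute
differences that is nonnegative on all `0/1` functions is nonnegative on all real functions. -/
lemma threshold {V : Type u} [Fintype V] {I : Type*} [Fintype I] (a b : I → V) (w : I → ℝ)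
    (h : ∀ x : V → ℝ, (∀ v, x v = 0 ∨ x v = 1) → 0 ≤ ∑ i, w i * |x (a i) - x (b i)|) :
    ∀ x : V → ℝ, 0 ≤ ∑ i, w i * |x (a i) - x (b i)| := by
  classical
  -- induction on the number of values
  have key : ∀ n : ℕ, ∀ x : V → ℝ, (Finset.univ.image x).card ≤ n →
      0 ≤ ∑ i, w i * |x (a i) - x (b i)| := by
    intro n
    induction n with
    | zero =>
      intro x hx
      have he : Finset.univ.image x = ∅ := Finset.card_eq_zero.mp (Nat.le_zero.mp hx)
      have hV : IsEmpty V := by
        by_contra hne
        rw [not_isEmpty_iff] at hne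
        obtain ⟨v⟩ := hne
        have : x v ∈ Finset.univ.image x := Finset.mem_image_of_mem _ (Finset.mem_univ v)
        rw [he] at this
        simp at this
      have hI : IsEmpty I := ⟨fun i => hV.elim (a i)⟩
      simp
    | succ n ih =>
      intro x hx
      by_cases hcard : (Finset.univ.image x).card ≤ 1
      · -- constant
        have hconst : ∀ u v, x u = x v := by
          intro u v
          exact Finset.card_le_one.mp hcard _ (Finset.mem_image_of_mem _ (Finset.mem_univ u)) _
            (Finset.mem_image_of_mem _ (Finset.mem_univ v))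
        have : ∀ i, w i * |x (a i) - x (b i)| = 0 := by
          intro i
          rw [hconst (a i) (b i)]
          simp
        simp [this]
      · push Not at hcard
        -- `A` = the value set; take the minimum `α` and the next value `β`
        set A := Finset.univ.image x with hA
        have hne : A.Nonempty := Finset.card_pos.mp (by omega)
        set α := A.min' hne with hα
        have hne2 : (A.erase α).Nonempty := by
          rw [← Finset.card_pos, Finset.card_erase_of_mem (Finset.min'_mem _ _)]
          omega
        set β := (A.erase α).min' hne2 with hβ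
        have hβmem : β ∈ A.erase α := Finset.min'_mem _ _
        have hβne : β ≠ α := (Finset.mem_erase.mp hβmem).1
        have hαle : ∀ v, α ≤ x v := fun v =>
          Finset.min'_le _ _ (Finset.mem_image_of_mem _ (Finset.mem_univ v))
        have hαβ : α < β := lt_of_le_of_ne
          (Finset.min'_le _ _ (Finset.mem_erase.mp hβmem).2) (Ne.symm hβne)
        have hβle : ∀ v, x v ≠ α → β ≤ x v := fun v hv =>
          Finset.min'_le _ _ (Finset.mem_erase.mpr ⟨hv, Finset.mem_image_of_mem _ (Finset.mem_univ v)⟩)
        -- the new function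
        let x' : V → ℝ := fun v => max (x v) β
        let y : V → ℝ := fun v => if x v = α then 1 else 0
        have hdec : ∀ u v, |x u - x v| = |x' u - x' v| + (β - α) * |y u - y v| := by
          intro u v
          by_cases hu : x u = α <;> by_cases hv : x v = α
          · simp only [x', y, hu, hv, sub_self, abs_zero, mul_zero, add_zero]
          · have h1 := hβle v hv
            have hmax : max (x v) β = x v := max_eq_left h1
            simp only [x', y, hu, hv, if_true, if_false, hmax, max_eq_right hαβ.le]
            rw [abs_of_nonpos (by linarith), abs_of_nonpos (by linarith)]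
            simp
          · have h1 := hβle u hu
            have hmax : max (x u) β = x u := max_eq_left h1
            simp only [x', y, hu, hv, if_true, if_false, hmax, max_eq_right hαβ.le]
            rw [abs_of_nonneg (by linarith), abs_of_nonneg (by linarith)]
            simp
          · have h1 := hβle u hu
            have h2 := hβle v hv
            simp only [x', y, hu, hv, if_false, max_eq_left h1, max_eq_left h2]
            simp
        -- card decreases
        have hcardlt : (Finset.univ.image x').card ≤ n := by
          have hsub : Finset.univ.image x' ⊆ A.erase α := by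
            intro r hr
            obtain ⟨v, -, rfl⟩ := Finset.mem_image.mp hr
            by_cases hv : x v = α
            · simp only [x', hv, max_eq_right hαβ.le]
              exact hβmem
            · have h1 := hβle v hv
              simp only [x', max_eq_left h1]
              exact Finset.mem_erase.mpr ⟨hv, Finset.mem_image_of_mem _ (Finset.mem_univ v)⟩
          have := Finset.card_le_card hsub
          rw [Finset.card_erase_of_mem (Finset.min'_mem _ _)] at this
          omega
        have hy01 : ∀ v, y v = 0 ∨ y v = 1 := by
          intro v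
          by_cases hv : x v = α <;> simp [y, hv]
        have h1 := ih x' hcardlt
        have h2 := h y hy01
        have : ∑ i, w i * |x (a i) - x (b i)|
            = ∑ i, w i * |x' (a i) - x' (b i)| + (β - α) * ∑ i, w i * |y (a i) - y (b i)| := by
          rw [Finset.mul_sum, ← Finset.sum_add_distrib]
          refine Finset.sum_congr rfl fun i _ => ?_
          rw [hdec]
          ring
        rw [this]
        have hβα : 0 ≤ β - α := by linarith
        positivity
  intro x
  exact key _ x le_rfl

/-! ### Facts about the path metric -/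

lemma walkLength_nil {V : Type u} {G : SimpleGraph V} (ℓ : Sym2 V → ℝ) (a : V) :
    walkLength ℓ (SimpleGraph.Walk.nil : G.Walk a a) = 0 := by
  simp [walkLength]

lemma walkLength_cons {V : Type u} {G : SimpleGraph V} (ℓ : Sym2 V → ℝ) {a b c : V}
    (h : G.Adj a b) (p : G.Walk b c) :
    walkLength ℓ (SimpleGraph.Walk.cons h p) = ℓ s(a, b) + walkLength ℓ p := by
  simp [walkLength]

/-- A function that is `1`-Lipschitz along edges bounds the length of every walk from below. -/
lemma walkLength_ge_of_lipschitz {V : Type u} {G : SimpleGraph V} (ℓ : Sym2 V → ℝ) (g : V → ℝ)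
    (hg : ∀ a b, G.Adj a b → |g a - g b| ≤ ℓ s(a, b)) {a b : V} (p : G.Walk a b) :
    g a - g b ≤ walkLength ℓ p := by
  induction p with
  | nil => simp [walkLength]
  | cons h p ih =>
    rw [walkLength_cons]
    have := hg _ _ h
    have h2 := (abs_le.mp this).2
    linarith

lemma walkLength_nonneg {V : Type u} {G : SimpleGraph V} (ℓ : Sym2 V → ℝ)
    (hℓ : ∀ e ∈ G.edgeSet, 0 < ℓ e) {a b : V} (p : G.Walk a b) : 0 ≤ walkLength ℓ p := by
  induction p with
  | nil => simp [walkLength]
  | cons h p ih =>
    rw [walkLength_cons]
    have := hℓ s(_, _) (by simpa using h)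
    linarith

lemma pathMetric_bddBelow {V : Type u} {G : SimpleGraph V} (ℓ : Sym2 V → ℝ)
    (hℓ : ∀ e ∈ G.edgeSet, 0 < ℓ e) (a b : V) :
    BddBelow (Set.range fun p : G.Walk a b => walkLength ℓ p) := by
  refine ⟨0, ?_⟩
  rintro _ ⟨p, rfl⟩
  exact walkLength_nonneg ℓ hℓ p

lemma pathMetric_le_edge {V : Type u} {G : SimpleGraph V} (ℓ : Sym2 V → ℝ)
    (hℓ : ∀ e ∈ G.edgeSet, 0 < ℓ e) {a b : V} (h : G.Adj a b) :
    pathMetric G ℓ a b ≤ ℓ s(a, b) := by
  have := ciInf_le (pathMetric_bddBelow ℓ hℓ a b) (SimpleGraph.Walk.cons h SimpleGraph.Walk.nil)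
  simpa [walkLength, pathMetric] using this

lemma pathMetric_nonneg {V : Type u} {G : SimpleGraph V} (ℓ : Sym2 V → ℝ)
    (hℓ : ∀ e ∈ G.edgeSet, 0 < ℓ e) (a b : V) : 0 ≤ pathMetric G ℓ a b := by
  by_cases hne : Nonempty (G.Walk a b)
  · exact le_ciInf fun p => walkLength_nonneg ℓ hℓ p
  · rw [not_nonempty_iff] at hne
    simp [pathMetric]

lemma le_pathMetric_of_lipschitz {V : Type u} {G : SimpleGraph V} (hG : G.Connected)
    (ℓ : Sym2 V → ℝ) (g : V → ℝ) (hg : ∀ a b, G.Adj a b → |g a - g b| ≤ ℓ s(a, b)) (a b : V) :
    g a - g b ≤ pathMetric G ℓ a b := by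
  have : Nonempty (G.Walk a b) := (hG.preconnected a b)
  exact le_ciInf fun p => walkLength_ge_of_lipschitz ℓ g hg p

end Vale.Agent.Lib.P235
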