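import Vale.Agent.Lib.P235.Net

open Sum

namespace Vale.Agent.Lib.P235

/-- A gadget: a small graph with terminals `inr false`, `inr true`, edges `u e -- v e` with height
`hH` increasing along each edge, capacities `κ`, demands `D` on pairs `(pa j, pb j)` with distance
lower bounds `ε`, and a rooted tree of bags. -/
structure Gadget where
  Y : Type
  fY : Fintype Y
  E : Type
  fE : Fintype E
  JH : Type
  fJH : Fintype JH
  TH : Type
  fTH : Fintype TH
  u : E → Y ⊕ Bool
  v : E → Y ⊕ Bool
  hH : Y ⊕ Bool → ℝ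
  κ : E → ℝ
  pa : JH → Y ⊕ Bool
  pb : JH → Y ⊕ Bool
  D : JH → ℝ
  ε : JH → ℝ
  rootH : TH
  parentH : TH → TH
  rankH : TH → ℕ
  bagH : TH → Finset (Y ⊕ Bool)
  topH : Y ⊕ Bool → TH
  bE : E → TH
  R : ℕ

attribute [instance] Gadget.fY Gadget.fE Gadget.fJH Gadget.fTH

/-- The conditions on a gadget. -/
structure Gadget.Good (H : Gadget) : Prop where
  h_s : H.hH (inr false) = 0
  h_t : H.hH (inr true) = 1
  lt : ∀ e, H.hH (H.u e) < H.hH (H.v e)
  κ_nonneg : ∀ e, 0 ≤ H.κ e
  D_nonneg : ∀ j, 0 ≤ H.D j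
  cut : ∀ x : H.Y ⊕ Bool → ℝ,
    ∑ j, H.D j * |x (H.pa j) - x (H.pb j)| + |x (inr false) - x (inr true)|
      ≤ ∑ e, H.κ e * |x (H.u e) - x (H.v e)|
  pot : ∀ j, ∃ g : H.Y ⊕ Bool → ℝ, g (inr false) = 0 ∧ g (inr true) = 0 ∧
    (∀ e, |g (H.u e) - g (H.v e)| ≤ H.hH (H.v e) - H.hH (H.u e)) ∧
    H.ε j ≤ g (H.pa j) - g (H.pb j)
  reach : ∀ a, Relation.ReflTransGen
    (fun x y => ∃ e, (H.u e = x ∧ H.v e = y) ∨ (H.u e = y ∧ H.v e = x)) (inr false) a
  rank_lt : ∀ t, t ≠ H.rootH → H.rankH (H.parentH t) < H.rankH t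
  mem_top : ∀ a, a ∈ H.bagH (H.topH a)
  up : ∀ a t, a ∈ H.bagH t → t ≠ H.topH a → t ≠ H.rootH ∧ a ∈ H.bagH (H.parentH t)
  u_mem : ∀ e, H.u e ∈ H.bagH (H.bE e)
  v_mem : ∀ e, H.v e ∈ H.bagH (H.bE e)
  root_s : inr false ∈ H.bagH H.rootH
  root_t : inr true ∈ H.bagH H.rootH
  card_le : ∀ t, (H.bagH t).card ≤ 4
  rank_le : ∀ t, H.rankH t ≤ H.R

namespace Gadget

variable (H : Gadget) (N : Net)

/-- Inner vertices of the composite network. -/
abbrev CX : Type := H.Y ⊕ (H.E × N.X)

/-- The gadget vertices inside the composite. -/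
def emb : H.Y ⊕ Bool → (H.CX N) ⊕ Bool := Sum.elim (fun y => inl (inl y)) inr

/-- The copy of the network `N` substituted for the edge `e`. -/
def iota (e : H.E) : N.X ⊕ Bool → (H.CX N) ⊕ Bool :=
  Sum.elim (fun x => inl (inr (e, x))) (fun b => H.emb N (cond b (H.v e) (H.u e)))

@[simp] lemma iota_inl (e : H.E) (x : N.X) : H.iota N e (inl x) = inl (inr (e, x)) := rfl
@[simp] lemma iota_s (e : H.E) : H.iota N e (inr false) = H.emb N (H.u e) := rfl
@[simp] lemma iota_t (e : H.E) : H.iota N e (inr true) = H.emb N (H.v e) := rfl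

/-- Extension of a function on gadget vertices to the composite: linear interpolation in the
height inside every copy. -/
noncomputable def extend (g : H.Y ⊕ Bool → ℝ) : (H.CX N) ⊕ Bool → ℝ :=
  Sum.elim
    (Sum.elim (fun y => g (inl y))
      (fun p => g (H.u p.1) + (g (H.v p.1) - g (H.u p.1)) * N.h (inl p.2)))
    (fun b => g (inr b))

@[simp] lemma extend_emb (g : H.Y ⊕ Bool → ℝ) (a : H.Y ⊕ Bool) :
    H.extend N g (H.emb N a) = g a := by
  cases a <;> rfl

variable {N} in
lemma extend_iota (hN : N.Good) (g : H.Y ⊕ Bool → ℝ) (e : H.E) (z : N.X ⊕ Bool) :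
    H.extend N g (H.iota N e z) = g (H.u e) + (g (H.v e) - g (H.u e)) * N.h z := by
  rcases z with x | b
  · rfl
  · cases b
    · simp [hN.h_s]
    · simp [hN.h_t]

/-- The composite network: every edge of the gadget is replaced by a scaled copy of `N`. -/
noncomputable def comp : Net where
  X := H.CX N
  fX := inferInstance
  I := H.E × N.I
  fI := inferInstance
  J := H.JH ⊕ (H.E × N.J)
  fJ := inferInstance
  G := SimpleGraph.fromRel (fun a b => ∃ e x y, N.G.Adj x y ∧ H.iota N e x = a ∧ H.iota N e y = b)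
  h := H.extend N H.hH
  ca := fun p => H.iota N p.1 (N.ca p.2)
  cb := fun p => H.iota N p.1 (N.cb p.2)
  c := fun p => H.κ p.1 * N.c p.2
  da := Sum.elim (fun j => H.emb N (H.pa j)) (fun p => H.iota N p.1 (N.da p.2))
  db := Sum.elim (fun j => H.emb N (H.pb j)) (fun p => H.iota N p.1 (N.db p.2))
  w := Sum.elim H.D (fun p => H.κ p.1 * N.w p.2)
  δ := Sum.elim H.ε (fun p => (H.hH (H.v p.1) - H.hH (H.u p.1)) * N.δ p.2)

lemma comp_adj {a b : (H.CX N) ⊕ Bool} (hab : (H.comp N).G.Adj a b) :
    ∃ e x y, N.G.Adj x y ∧ H.iota N e x = a ∧ H.iota N e y = b := by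
  have h1 : (SimpleGraph.fromRel (fun a b =>
      ∃ e x y, N.G.Adj x y ∧ H.iota N e x = a ∧ H.iota N e y = b)).Adj a b := hab
  rw [SimpleGraph.fromRel_adj] at h1
  rcases h1.2 with ⟨e, x, y, hxy, rfl, rfl⟩ | ⟨e, x, y, hxy, rfl, rfl⟩
  · exact ⟨e, x, y, hxy, rfl, rfl⟩
  · exact ⟨e, y, x, hxy.symm, rfl, rfl⟩

variable {H N}

lemma comp_h_iota (hN : N.Good) (e : H.E) (z : N.X ⊕ Bool) :
    (H.comp N).h (H.iota N e z) = H.hH (H.u e) + (H.hH (H.v e) - H.hH (H.u e)) * N.h z :=
  H.extend_iota hN _ e z

lemma comp_h_ne (hH : H.Good) (hN : N.Good) {e : H.E} {x y : N.X ⊕ Bool} (hxy : N.G.Adj x y) :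
    (H.comp N).h (H.iota N e x) ≠ (H.comp N).h (H.iota N e y) := by
  rw [comp_h_iota hN, comp_h_iota hN]
  intro h
  have h1 : (H.hH (H.v e) - H.hH (H.u e)) * (N.h x - N.h y) = 0 := by linarith
  have h2 : H.hH (H.v e) - H.hH (H.u e) ≠ 0 := (sub_pos.mpr (hH.lt e)).ne'
  rcases mul_eq_zero.mp h1 with h3 | h3
  · exact h2 h3
  · exact N.adj_ne_of hN hxy (by linarith)
where
  N.adj_ne_of {N : Net} (hN : N.Good) {x y : N.X ⊕ Bool} (hxy : N.G.Adj x y) (h : N.h x = N.h y) :
      False := hN.adj_ne x y hxy h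

lemma comp_adj_iota (hH : H.Good) (hN : N.Good) {e : H.E} {x y : N.X ⊕ Bool} (hxy : N.G.Adj x y) :
    (H.comp N).G.Adj (H.iota N e x) (H.iota N e y) := by
  have h1 : (SimpleGraph.fromRel (fun a b =>
      ∃ e x y, N.G.Adj x y ∧ H.iota N e x = a ∧ H.iota N e y = b)).Adj
        (H.iota N e x) (H.iota N e y) := by
    rw [SimpleGraph.fromRel_adj]
    refine ⟨?_, Or.inl ⟨e, x, y, hxy, rfl, rfl⟩⟩
    intro h
    exact comp_h_ne hH hN hxy (congrArg _ h)
  exact h1

/-- The copy map as a graph homomorphism. -/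
noncomputable def iotaHom (hH : H.Good) (hN : N.Good) (e : H.E) : N.G →g (H.comp N).G where
  toFun := H.iota N e
  map_rel' := fun hxy => comp_adj_iota hH hN hxy

lemma comp_reach_u_v (hH : H.Good) (hN : N.Good) (e : H.E) :
    (H.comp N).G.Reachable (H.emb N (H.u e)) (H.emb N (H.v e)) := by
  have h := (hN.conn.preconnected (inr false) (inr true)).map (iotaHom hH hN e)
  exact h

lemma comp_reach_emb (hH : H.Good) (hN : N.Good) (a : H.Y ⊕ Bool) :
    (H.comp N).G.Reachable (inr false) (H.emb N a) := by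
  have h := hH.reach a
  induction h with
  | refl => exact SimpleGraph.Reachable.refl _
  | tail _ hstep ih =>
    obtain ⟨e, ⟨h1, h2⟩ | ⟨h1, h2⟩⟩ := hstep
    · rw [← h2]
      rw [← h1] at ih
      exact ih.trans (comp_reach_u_v hH hN e)
    · rw [← h1]
      rw [← h2] at ih
      exact ih.trans (comp_reach_u_v hH hN e).symm

lemma comp_conn (hH : H.Good) (hN : N.Good) : (H.comp N).G.Connected := by
  have hall : ∀ a, (H.comp N).G.Reachable (inr false) a := by
    rintro ((y | ⟨e, x⟩) | b)
    · exact comp_reach_emb hH hN (inl y)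
    · have h1 := (hN.conn.preconnected (inr false) (inl x)).map (iotaHom hH hN e)
      exact (comp_reach_emb hH hN (H.u e)).trans h1
    · exact comp_reach_emb hH hN (inr b)
  have : Nonempty ((H.comp N).X ⊕ Bool) := ⟨inr false⟩
  exact ⟨fun a b => (hall a).symm.trans (hall b)⟩

lemma comp_cut (hH : H.Good) (hN : N.Good) (x : (H.comp N).X ⊕ Bool → ℝ) :
    ∑ j, (H.comp N).w j * |x ((H.comp N).da j) - x ((H.comp N).db j)|
        + |x (inr false) - x (inr true)|
      ≤ ∑ i, (H.comp N).c i * |x ((H.comp N).ca i) - x ((H.comp N).cb i)| := by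
  -- the gadget inequality
  have h1 := hH.cut (fun a => x (H.emb N a))
  -- the inequality in each copy
  have h2 : ∀ e, H.κ e * (∑ j, N.w j * |x (H.iota N e (N.da j)) - x (H.iota N e (N.db j))|
        + |x (H.emb N (H.u e)) - x (H.emb N (H.v e))|)
      ≤ H.κ e * ∑ i, N.c i * |x (H.iota N e (N.ca i)) - x (H.iota N e (N.cb i))| := by
    intro e
    exact mul_le_mul_of_nonneg_left (hN.cut (fun z => x (H.iota N e z))) (hH.κ_nonneg e)
  have h3 := Finset.sum_le_sum (fun e (_ : e ∈ Finset.univ) => h2 e)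
  have hJ : ∑ j, (H.comp N).w j * |x ((H.comp N).da j) - x ((H.comp N).db j)|
      = ∑ j, H.D j * |x (H.emb N (H.pa j)) - x (H.emb N (H.pb j))|
        + ∑ e, H.κ e * ∑ j, N.w j * |x (H.iota N e (N.da j)) - x (H.iota N e (N.db j))| := by
    change ∑ j : H.JH ⊕ (H.E × N.J), _ = _
    rw [Fintype.sum_sum_type, Fintype.sum_prod_type]
    congr 1
    refine Finset.sum_congr rfl fun e _ => ?_
    rw [Finset.mul_sum]
    refine Finset.sum_congr rfl fun j _ => ?_
    change H.κ e * N.w j * |x (H.iota N e (N.da j)) - x (H.iota N e (N.db j))| = _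
    ring
  have hI : ∑ i, (H.comp N).c i * |x ((H.comp N).ca i) - x ((H.comp N).cb i)|
      = ∑ e, H.κ e * ∑ i, N.c i * |x (H.iota N e (N.ca i)) - x (H.iota N e (N.cb i))| := by
    change ∑ i : H.E × N.I, _ = _
    rw [Fintype.sum_prod_type]
    refine Finset.sum_congr rfl fun e _ => ?_
    rw [Finset.mul_sum]
    refine Finset.sum_congr rfl fun i _ => ?_
    change H.κ e * N.c i * |x (H.iota N e (N.ca i)) - x (H.iota N e (N.cb i))| = _
    ring
  rw [hJ, hI]
  simp only [mul_add, Finset.sum_add_distrib] at h3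
  have h4 : x (inr false) = x (H.emb N (inr false)) := rfl
  have h5 : x (inr true) = x (H.emb N (inr true)) := rfl
  rw [h4, h5]
  linarith

lemma comp_pot (hH : H.Good) (hN : N.Good) (j : (H.comp N).J) :
    ∃ g : (H.comp N).X ⊕ Bool → ℝ, g (inr false) = 0 ∧ g (inr true) = 0 ∧
      (∀ a b, (H.comp N).G.Adj a b → |g a - g b| ≤ |(H.comp N).h a - (H.comp N).h b|) ∧
      (H.comp N).δ j ≤ g ((H.comp N).da j) - g ((H.comp N).db j) := by
  classical
  rcases j with j | ⟨e0, j⟩
  · -- a demand of the gadget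
    obtain ⟨g, hgs, hgt, hgL, hgδ⟩ := hH.pot j
    refine ⟨H.extend N g, hgs, hgt, ?_, ?_⟩
    · intro a b hab
      obtain ⟨e, x, y, hxy, rfl, rfl⟩ := comp_adj H N hab
      rw [H.extend_iota hN, H.extend_iota hN, comp_h_iota hN, comp_h_iota hN]
      have h1 : g (H.u e) + (g (H.v e) - g (H.u e)) * N.h x
          - (g (H.u e) + (g (H.v e) - g (H.u e)) * N.h y)
          = (g (H.v e) - g (H.u e)) * (N.h x - N.h y) := by ring
      have h2 : H.hH (H.u e) + (H.hH (H.v e) - H.hH (H.u e)) * N.h x
          - (H.hH (H.u e) + (H.hH (H.v e) - H.hH (H.u e)) * N.h y)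
          = (H.hH (H.v e) - H.hH (H.u e)) * (N.h x - N.h y) := by ring
      rw [h1, h2, abs_mul, abs_mul]
      apply mul_le_mul_of_nonneg_right _ (abs_nonneg _)
      rw [abs_of_pos (sub_pos.mpr (hH.lt e))]
      have := hgL e
      rwa [abs_sub_comm] at this
    · change H.ε j ≤ H.extend N g (H.emb N (H.pa j)) - H.extend N g (H.emb N (H.pb j))
      simpa using hgδ
  · -- a demand inside the copy of `e0`
    obtain ⟨g, hgs, hgt, hgL, hgδ⟩ := hN.pot j
    let ℓ0 := H.hH (H.v e0) - H.hH (H.u e0)
    have hℓ0 : 0 < ℓ0 := sub_pos.mpr (hH.lt e0)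
    let g' : (H.comp N).X ⊕ Bool → ℝ :=
      Sum.elim (Sum.elim (fun _ => 0)
        (fun p => if p.1 = e0 then ℓ0 * g (inl p.2) else 0)) (fun _ => 0)
    have hg' : ∀ e z, g' (H.iota N e z) = if e = e0 then ℓ0 * g z else 0 := by
      intro e z
      rcases z with x | b
      · rfl
      · have hgb : g (inr b) = 0 := by cases b <;> assumption
        rw [hgb, mul_zero]
        have hemb : ∀ a, g' (H.emb N a) = 0 := by
          rintro (y | b') <;> rfl
        simp only [ite_self]
        cases b
        · exact hemb _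
        · exact hemb _
    refine ⟨g', rfl, rfl, ?_, ?_⟩
    · intro a b hab
      obtain ⟨e, x, y, hxy, rfl, rfl⟩ := comp_adj H N hab
      rw [hg', hg', comp_h_iota hN, comp_h_iota hN]
      have h2 : H.hH (H.u e) + (H.hH (H.v e) - H.hH (H.u e)) * N.h x
          - (H.hH (H.u e) + (H.hH (H.v e) - H.hH (H.u e)) * N.h y)
          = (H.hH (H.v e) - H.hH (H.u e)) * (N.h x - N.h y) := by ring
      rw [h2]
      by_cases he : e = e0
      · subst he
        simp only [if_true]
        rw [← mul_sub, abs_mul, abs_mul]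
        exact mul_le_mul_of_nonneg_left (hgL x y hxy) (abs_nonneg _)
      · simp only [he, if_false, sub_self, abs_zero]
        exact abs_nonneg _
    · change ℓ0 * N.δ j ≤ g' (H.iota N e0 (N.da j)) - g' (H.iota N e0 (N.db j))
      rw [hg', hg']
      simp only [if_true]
      rw [← mul_sub]
      exact mul_le_mul_of_nonneg_left hgδ hℓ0.le

/-- Rooted decomposition of the composite, from one of the gadget and one of the network. -/
noncomputable def compDecomp (hH : H.Good) (hN : N.Good) (D : RootedDecomp N.G 3)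
    (hs : inr false ∈ D.bag D.root) (ht : inr true ∈ D.bag D.root) :
    RootedDecomp (H.comp N).G 3 := by
  classical
  letI := D.fT
  have htop : ∀ b : Bool, inr b ∈ D.bag D.root → D.top (inr b) = D.root := by
    intro b hb
    by_contra hne
    exact (D.up _ D.root hb (Ne.symm hne)).1 rfl
  exact
  { T := H.TH ⊕ (H.E × D.T)
    fT := inferInstance
    root := inl H.rootH
    parent := Sum.elim (fun t => inl (H.parentH t))
      (fun p => if p.2 = D.root then inl (H.bE p.1) else inr (p.1, D.parent p.2))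
    rank := Sum.elim H.rankH (fun p => H.R + 1 + D.rank p.2)
    bag := Sum.elim (fun t => (H.bagH t).image (H.emb N))
      (fun p => (D.bag p.2).image (H.iota N p.1))
    rank_lt := by
      rintro (t | ⟨e, t⟩) ht'
      · have : t ≠ H.rootH := fun h => ht' (by rw [h])
        exact hH.rank_lt t this
      · by_cases h : t = D.root
        · simp only [Sum.elim_inr, h, if_true, Sum.elim_inl]
          have := hH.rank_le (H.bE e)
          omega
        · simp only [Sum.elim_inr, h, if_false]
          have := D.rank_lt t h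
          omega
    top := Sum.elim
      (Sum.elim (fun y => inl (H.topH (inl y))) (fun p => inr (p.1, D.top (inl p.2))))
      (fun b => inl (H.topH (inr b)))
    mem_top := by
      rintro ((y | ⟨e, x⟩) | b)
      · exact Finset.mem_image.mpr ⟨inl y, hH.mem_top _, rfl⟩
      · exact Finset.mem_image.mpr ⟨inl x, D.mem_top _, rfl⟩
      · exact Finset.mem_image.mpr ⟨inr b, hH.mem_top _, rfl⟩
    up := by
      have hembinj : ∀ a b, H.emb N a = H.emb N b → a = b := by
        rintro (a | a) (b | b) h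
        · simpa [emb] using h
        · simp [emb] at h
        · simp [emb] at h
        · simpa [emb] using h
      rintro v (t | ⟨e, t⟩) hv hne
      · obtain ⟨a, ha, rfl⟩ := Finset.mem_image.mp hv
        have htopa : (Sum.elim
            (Sum.elim (fun y => inl (H.topH (inl y))) (fun p => inr (p.1, D.top (inl p.2))))
            (fun b => inl (H.topH (inr b))) : _ → H.TH ⊕ (H.E × D.T)) (H.emb N a)
            = inl (H.topH a) := by
          rcases a with a | a <;> rfl
        have hne' : t ≠ H.topH a := fun h => hne (by rw [h]; exact htopa.symm)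
        obtain ⟨h1, h2⟩ := hH.up a t ha hne'
        refine ⟨fun h => h1 (Sum.inl.inj h), ?_⟩
        exact Finset.mem_image.mpr ⟨a, h2, rfl⟩
      · obtain ⟨z, hz, rfl⟩ := Finset.mem_image.mp hv
        refine ⟨by simp, ?_⟩
        rcases z with x | b
        · -- an inner vertex of the copy
          have hne' : t ≠ D.top (inl x) := fun h => hne (by rw [h]; rfl)
          obtain ⟨h1, h2⟩ := D.up _ t hz hne'
          simp only [Sum.elim_inr, h1, if_false]
          exact Finset.mem_image.mpr ⟨inl x, h2, rfl⟩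
        · -- a terminal of the copy
          by_cases h : t = D.root
          · simp only [Sum.elim_inr, h, if_true, Sum.elim_inl]
            refine Finset.mem_image.mpr ?_
            cases b
            · exact ⟨H.u e, hH.u_mem e, rfl⟩
            · exact ⟨H.v e, hH.v_mem e, rfl⟩
          · have hrt : inr b ∈ D.bag D.root := by
              cases b
              · exact hs
              · exact ht
            have hne' : t ≠ D.top (inr b) := by
              rw [htop b hrt]
              exact h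
            obtain ⟨_, h2⟩ := D.up _ t hz hne'
            simp only [Sum.elim_inr, h, if_false]
            exact Finset.mem_image.mpr ⟨inr b, h2, rfl⟩
    edge := by
      intro a b hab
      obtain ⟨e, x, y, hxy, rfl, rfl⟩ := comp_adj H N hab
      obtain ⟨t, h1, h2⟩ := D.edge x y hxy
      exact ⟨inr (e, t), Finset.mem_image_of_mem _ h1, Finset.mem_image_of_mem _ h2⟩
    card_le := by
      rintro (t | ⟨e, t⟩)
      · exact Finset.card_image_le.trans (hH.card_le t)
      · exact Finset.card_image_le.trans (D.card_le t) }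

lemma compDecomp_root_mem (hH : H.Good) (hN : N.Good) (D : RootedDecomp N.G 3)
    (hs : inr false ∈ D.bag D.root) (ht : inr true ∈ D.bag D.root) (b : Bool) :
    inr b ∈ (compDecomp hH hN D hs ht).bag (compDecomp hH hN D hs ht).root := by
  classical
  refine Finset.mem_image.mpr ⟨inr b, ?_, rfl⟩
  cases b
  · exact hH.root_s
  · exact hH.root_t

theorem comp_good (hH : H.Good) (hN : N.Good) : (H.comp N).Good where
  h_s := by
    change H.hH (inr false) = 0
    exact hH.h_s
  h_t := by
    change H.hH (inr true) = 1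
    exact hH.h_t
  adj_ne := by
    intro a b hab
    obtain ⟨e, x, y, hxy, rfl, rfl⟩ := comp_adj H N hab
    exact comp_h_ne hH hN hxy
  conn := comp_conn hH hN
  c_nonneg := by
    rintro ⟨e, i⟩
    exact mul_nonneg (hH.κ_nonneg e) (hN.c_nonneg i)
  w_nonneg := by
    rintro (j | ⟨e, j⟩)
    · exact hH.D_nonneg j
    · exact mul_nonneg (hH.κ_nonneg e) (hN.w_nonneg j)
  c_adj := by
    rintro ⟨e, i⟩
    exact comp_adj_iota hH hN (hN.c_adj i)
  cut := comp_cut hH hN
  pot := comp_pot hH hN
  tree := by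
    obtain ⟨D, hs, ht⟩ := hN.tree
    exact ⟨compDecomp hH hN D hs ht, compDecomp_root_mem hH hN D hs ht false,
      compDecomp_root_mem hH hN D hs ht true⟩

/-- The scaling factor of the substitution: total capacity times length in the gadget. -/
noncomputable def gain (H : Gadget) : ℝ := ∑ e, H.κ e * (H.hH (H.v e) - H.hH (H.u e))

/-- The demand value of the gadget itself. -/
noncomputable def base (H : Gadget) : ℝ := ∑ j, H.D j * H.ε j

lemma comp_demandValue : (H.comp N).demandValue = H.base + H.gain * N.demandValue := by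
  unfold Net.demandValue base gain
  change ∑ j : H.JH ⊕ (H.E × N.J), _ = _
  rw [Fintype.sum_sum_type, Fintype.sum_prod_type, Finset.sum_mul]
  congr 1
  refine Finset.sum_congr rfl fun e _ => ?_
  rw [Finset.mul_sum]
  refine Finset.sum_congr rfl fun j _ => ?_
  change H.κ e * N.w j * ((H.hH (H.v e) - H.hH (H.u e)) * N.δ j) = _
  ring

lemma comp_volume (hN : N.Good) (hH : H.Good) : (H.comp N).volume = H.gain * N.volume := by
  unfold Net.volume gain
  change ∑ i : H.E × N.I, _ = _
  rw [Fintype.sum_prod_type, Finset.sum_mul]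
  refine Finset.sum_congr rfl fun e _ => ?_
  rw [Finset.mul_sum]
  refine Finset.sum_congr rfl fun i _ => ?_
  change H.κ e * N.c i * |(H.comp N).h (H.iota N e (N.ca i)) - (H.comp N).h (H.iota N e (N.cb i))|
    = _
  rw [comp_h_iota hN, comp_h_iota hN]
  have h2 : H.hH (H.u e) + (H.hH (H.v e) - H.hH (H.u e)) * N.h (N.ca i)
      - (H.hH (H.u e) + (H.hH (H.v e) - H.hH (H.u e)) * N.h (N.cb i))
      = (H.hH (H.v e) - H.hH (H.u e)) * (N.h (N.ca i) - N.h (N.cb i)) := by ring
  rw [h2, abs_mul, abs_of_pos (sub_pos.mpr (hH.lt e))]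
  ring

/-- Iterating a gadget with `base ≥ C * (gain - 1)` and `gain ≥ 1`: the difference between demand
value and `C` times the volume grows at least linearly in the number of iterations. -/
theorem iterate (hH : H.Good) {C : ℝ} (hgain : 1 ≤ H.gain) (hpos : 0 ≤ H.base - C * (H.gain - 1))
    (k : ℕ) : ∃ N : Net, N.Good ∧
      (k : ℝ) * (H.base - C * (H.gain - 1)) - C ≤ N.demandValue - C * N.volume := by
  induction k with
  | zero =>
    refine ⟨baseNet, baseNet_good, ?_⟩
    rw [baseNet_demandValue, baseNet_volume]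
    simp
  | succ k ih =>
    obtain ⟨N, hN, h⟩ := ih
    refine ⟨H.comp N, comp_good hH hN, ?_⟩
    rw [comp_demandValue, comp_volume hN hH]
    push_cast
    have h1 : H.base + H.gain * N.demandValue - C * (H.gain * N.volume)
        = H.base + H.gain * (N.demandValue - C * N.volume) := by ring
    rw [h1]
    have h2 : H.gain * ((k : ℝ) * (H.base - C * (H.gain - 1)) - C)
        ≤ H.gain * (N.demandValue - C * N.volume) :=
      mul_le_mul_of_nonneg_left h (by linarith)
    have h3 : (k : ℝ) * (H.base - C * (H.gain - 1))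
        ≤ H.gain * ((k : ℝ) * (H.base - C * (H.gain - 1))) := by
      have : 0 ≤ (k : ℝ) * (H.base - C * (H.gain - 1)) := by positivity
      nlinarith
    nlinarith

/-- A good gadget with `base > C * (gain - 1)` and `gain ≥ 1` yields a network with demand value
larger than `C` times the volume. -/
theorem exists_net (hH : H.Good) {C : ℝ} (hgain : 1 ≤ H.gain)
    (hpos : C * (H.gain - 1) < H.base) :
    ∃ N : Net, N.Good ∧ C * N.volume < N.demandValue := by
  have hε : 0 < H.base - C * (H.gain - 1) := by linarith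
  obtain ⟨k, hk⟩ := exists_nat_gt (C / (H.base - C * (H.gain - 1)))
  obtain ⟨N, hN, h⟩ := iterate hH hgain hε.le k
  refine ⟨N, hN, ?_⟩
  rw [div_lt_iff₀ hε] at hk
  linarith

end Gadget

end Vale.Agent.Lib.P235
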