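import Mathlib

open MeasureTheory

namespace Vale.Agent.Lib.P235

universe u v

/-- The total length of a walk of `G`, for edge lengths `ℓ`. -/
def walkLength {V : Type u} {G : SimpleGraph V} (ℓ : Sym2 V → ℝ) {a b : V} (p : G.Walk a b) : ℝ :=
  (p.edges.map ℓ).sum

/-- The shortest-path metric `d_{G,ℓ}`: the infimum of the lengths of the walks from `a` to `b`. -/
noncomputable def pathMetric {V : Type u} (G : SimpleGraph V) (ℓ : Sym2 V → ℝ) (a b : V) : ℝ :=
  ⨅ p : G.Walk a b, walkLength ℓ p

/-- `(V, d)` embeds with distortion at most `C` into `L_1(Ω, μ)` for some measure space `(Ω, μ)`: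
there is `f : V → L_1(Ω, μ)` with `d x y ≤ ‖f x - f y‖₁ ≤ C * d x y` for all `x y`. -/
def EmbedsL1 {V : Type u} (d : V → V → ℝ) (C : ℝ) : Prop :=
  ∃ (Ω : Type v) (_ : MeasurableSpace Ω) (μ : Measure Ω) (f : V → Lp ℝ 1 μ),
    ∀ x y, d x y ≤ ‖f x - f y‖ ∧ ‖f x - f y‖ ≤ C * d x y

/-- `G` has treewidth at most `k`: there is a tree `τ` on a finite type `T` with bags
`bag : T → Finset V` such that every vertex lies in a bag, every edge of `G` lies in a bag, the bags
containing any given vertex form a connected subtree of `τ`, and every bag has at most `k + 1`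
vertices. -/
def TreewidthLE {V : Type u} (G : SimpleGraph V) (k : ℕ) : Prop :=
  ∃ (T : Type u) (_ : Finite T) (τ : SimpleGraph T) (bag : T → Finset V),
    τ.IsTree ∧
    (∀ a b, G.Adj a b → ∃ t, a ∈ bag t ∧ b ∈ bag t) ∧
    (∀ v, (τ.induce {t | v ∈ bag t}).Connected) ∧
    ∀ t, (bag t).card ≤ k + 1

end Vale.Agent.Lib.P235
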