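import Vale.Agent.Lib.P235.Comp

open Sum

namespace Vale.Agent.Lib.P235

/-- The constant `(3 + √5) / 2`. -/
noncomputable def aK : ℝ := (3 + Real.sqrt 5) / 2

lemma aK_sq : aK ^ 2 = 3 * aK - 1 := by
  unfold aK
  have h : Real.sqrt 5 ^ 2 = 5 := Real.sq_sqrt (by norm_num)
  nlinarith

lemma aK_lower : (13 : ℝ) / 5 < aK := by
  unfold aK
  have h : (11 : ℝ) / 5 < Real.sqrt 5 := by
    rw [Real.lt_sqrt (by norm_num)]
    norm_num
  linarith

lemma aK_upper : aK < (27 : ℝ) / 10 := by
  unfold aK
  have h : Real.sqrt 5 < (12 : ℝ) / 5 := by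
    rw [Real.sqrt_lt' (by norm_num)]
    norm_num
  linarith

lemma aK_sub_one_sq : (aK - 1) ^ 2 = aK := by
  have := aK_sq
  nlinarith

lemma aux1 {q : ℝ} (h0 : 0 ≤ q) (h1 : q ≤ 1) :
    0 ≤ q * ((1 + (2 / 5) * (3 - aK)) + 7 / 5 - (2 * aK / 5) * (1 - q)) := by
  have ha2 := aK_upper
  apply mul_nonneg h0
  have h2 : (aK) * (1 - q) ≤ (27 / 10) * 1 :=
    mul_le_mul ha2.le (by linarith) (by linarith) (by norm_num)
  nlinarith

lemma aux2 {q : ℝ} (h0 : 0 ≤ q) (h1 : q ≤ 1) :
    0 ≤ q * ((1 + (2 / 5) * (3 - aK)) - (2 * aK / 5) * (1 - q)) := by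
  have ha2 := aK_upper
  have ha1 := aK_lower
  apply mul_nonneg h0
  have h2 : (aK) * (1 - q) ≤ (27 / 10) * 1 :=
    mul_le_mul ha2.le (by linarith) (by linarith) (by norm_num)
  nlinarith

lemma aux3 (q : ℝ) :
    (1 + (2 / 5) * (3 - aK)) * q + (7 / 5) * (1 - q) - (2 * aK / 5) * (q * (1 - q)) - 1
      = (2 / 5) * (1 - (aK - 1) * q) ^ 2 := by
  have h := aK_sub_one_sq
  have h2 : (1 - (aK - 1) * q) ^ 2 = 1 - 2 * (aK - 1) * q + (aK - 1) ^ 2 * q ^ 2 := by ring
  rw [h2, h]
  ring

/-- The polynomial inequality behind the gadget: the case analysis over the terminals and hubs,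
with `p` the fraction of leaves on one side. -/
lemma poly_ineq {σ τ B C p : ℝ} (hσ : σ = 0 ∨ σ = 1) (hτ : τ = 0 ∨ τ = 1) (hB : B = 0 ∨ B = 1)
    (hC : C = 0 ∨ C = 1) (hp0 : 0 ≤ p) (hp1 : p ≤ 1) :
    (2 * aK / 5) * (p * (1 - p)) + (1 / 5) * |B - C| + |σ - τ|
      ≤ (1 + (2 / 5) * (3 - aK)) * (σ + p - 2 * σ * p)
        + (7 / 10) * ((p + B - 2 * p * B) + (p + C - 2 * p * C))
        + (1 / 2) * ((B + τ - 2 * B * τ) + (C + τ - 2 * C * τ)) := by
  have hq0 : 0 ≤ 1 - p := by linarith
  have hq1 : 1 - p ≤ 1 := by linarith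
  have a1 := aux1 hp0 hp1
  have a2 := aux2 hp0 hp1
  have a3 := aux3 p
  have a4 : 0 ≤ (2 / 5) * (1 - (aK - 1) * p) ^ 2 := by positivity
  have b1 := aux1 hq0 hq1
  have b2 := aux2 hq0 hq1
  have b3 := aux3 (1 - p)
  have b4 : 0 ≤ (2 / 5) * (1 - (aK - 1) * (1 - p)) ^ 2 := by positivity
  rcases hσ with rfl | rfl <;> rcases hτ with rfl | rfl <;> rcases hB with rfl | rfl <;>
    rcases hC with rfl | rfl <;>
    simp only [sub_self, abs_zero, sub_zero, zero_sub, abs_neg, abs_one] <;>
    linarith

/-! ### The gadget -/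

/-- The top vertices `b`, `c` (for `β = false, true`). -/
def kTop (m : ℕ) (β : Bool) : (Bool ⊕ Fin m) ⊕ Bool := inl (inl β)

/-- The leaves `z i`. -/
def kZ {m : ℕ} (i : Fin m) : (Bool ⊕ Fin m) ⊕ Bool := inl (inr i)

/-- The bags of the gadget: the root bag `{s, t, b, c}` and the bags `{s, b, c, z i}`. -/
def kBag (m : ℕ) : Option (Fin m) → Finset ((Bool ⊕ Fin m) ⊕ Bool)
  | none => {inr false, inr true, kTop m false, kTop m true}
  | some i => {inr false, kTop m false, kTop m true, kZ i}

/-- The gadget based on `K_{3,m+1}`: terminals `s = inr false`, `t = inr true`, hubs `b`, `c`,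
leaves `z i`. Heights `0, 1/4, 1/2, 1`; edges `s z_i`, `z_i b`, `z_i c`, `b t`, `c t`. -/
noncomputable def kGadget (m : ℕ) : Gadget where
  Y := Bool ⊕ Fin m
  fY := inferInstance
  E := Fin m ⊕ ((Fin m × Bool) ⊕ Bool)
  fE := inferInstance
  JH := (Fin m × Fin m) ⊕ Unit
  fJH := inferInstance
  TH := Option (Fin m)
  fTH := inferInstance
  u := Sum.elim (fun _ => inr false) (Sum.elim (fun p => kZ p.1) (fun β => kTop m β))
  v := Sum.elim (fun i => kZ i) (Sum.elim (fun p => kTop m p.2) (fun _ => inr true))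
  hH := Sum.elim (Sum.elim (fun _ => 1 / 2) (fun _ => 1 / 4)) (fun b => if b then 1 else 0)
  κ := Sum.elim (fun _ => (1 + (2 / 5) * (3 - aK)) / m)
    (Sum.elim (fun _ => (7 / 10) / m) (fun _ => 1 / 2))
  pa := Sum.elim (fun p => kZ p.1) (fun _ => kTop m false)
  pb := Sum.elim (fun p => kZ p.2) (fun _ => kTop m true)
  D := Sum.elim (fun _ => (2 * aK / 5) / (2 * (m : ℝ) ^ 2)) (fun _ => 1 / 5)
  ε := Sum.elim (fun p => if p.1 = p.2 then 0 else 1 / 2) (fun _ => 1 / 2)
  rootH := none
  parentH := fun _ => none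
  rankH := fun t => if t = none then 0 else 1
  bagH := kBag m
  topH := Sum.elim (Sum.elim (fun _ => none) (fun i => some i)) (fun _ => none)
  bE := Sum.elim (fun i => some i) (Sum.elim (fun p => some p.1) (fun _ => none))
  R := 1

lemma sum_abs_const {m : ℕ} (y : Fin m → ℝ) (hy : ∀ i, y i = 0 ∨ y i = 1) (σ : ℝ)
    (hσ : σ = 0 ∨ σ = 1) :
    ∑ i, |σ - y i| = (m : ℝ) * σ + ∑ i, y i - 2 * σ * ∑ i, y i := by
  have h : ∀ i, |σ - y i| = σ + y i - 2 * σ * y i := by
    intro i
    rcases hσ with rfl | rfl <;> rcases hy i with h | h <;> rw [h] <;> norm_num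
  simp only [h]
  rw [Finset.sum_sub_distrib, Finset.sum_add_distrib, Finset.mul_sum]
  simp

lemma sum_abs_pairs {m : ℕ} (y : Fin m → ℝ) (hy : ∀ i, y i = 0 ∨ y i = 1) :
    ∑ p : Fin m × Fin m, |y p.1 - y p.2|
      = 2 * (m : ℝ) * (∑ i, y i) - 2 * (∑ i, y i) ^ 2 := by
  have h : ∀ i j, |y i - y j| = y i + y j - 2 * (y i * y j) := by
    intro i j
    rcases hy i with h | h <;> rcases hy j with h' | h' <;> rw [h, h'] <;> norm_num
  rw [Fintype.sum_prod_type]
  simp only [h]
  simp only [Finset.sum_sub_distrib, Finset.sum_add_distrib, ← Finset.mul_sum, ← Finset.sum_mul]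
  simp
  rw [← Finset.mul_sum]
  ring

lemma kGadget_cut {m : ℕ} (hm : 0 < m) (x : (kGadget m).Y ⊕ Bool → ℝ) :
    ∑ j, (kGadget m).D j * |x ((kGadget m).pa j) - x ((kGadget m).pb j)|
        + |x (inr false) - x (inr true)|
      ≤ ∑ e, (kGadget m).κ e * |x ((kGadget m).u e) - x ((kGadget m).v e)| := by
  classical
  have hm' : (0 : ℝ) < m := by exact_mod_cast hm
  -- reformulate as nonnegativity of a single signed sum, then apply `threshold`
  let A : ((kGadget m).E ⊕ (kGadget m).JH) ⊕ Unit → (kGadget m).Y ⊕ Bool :=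
    Sum.elim (Sum.elim (kGadget m).u (kGadget m).pa) (fun _ => inr false)
  let B : ((kGadget m).E ⊕ (kGadget m).JH) ⊕ Unit → (kGadget m).Y ⊕ Bool :=
    Sum.elim (Sum.elim (kGadget m).v (kGadget m).pb) (fun _ => inr true)
  let W : ((kGadget m).E ⊕ (kGadget m).JH) ⊕ Unit → ℝ :=
    Sum.elim (Sum.elim (kGadget m).κ (fun j => - (kGadget m).D j)) (fun _ => -1)
  have hsplit : ∀ x : (kGadget m).Y ⊕ Bool → ℝ,
      ∑ i, W i * |x (A i) - x (B i)|
        = ∑ e, (kGadget m).κ e * |x ((kGadget m).u e) - x ((kGadget m).v e)|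
          - (∑ j, (kGadget m).D j * |x ((kGadget m).pa j) - x ((kGadget m).pb j)|
            + |x (inr false) - x (inr true)|) := by
    intro x
    rw [Fintype.sum_sum_type, Fintype.sum_sum_type]
    simp only [A, B, W, Sum.elim_inl, Sum.elim_inr, neg_mul]
    rw [Finset.sum_neg_distrib]
    simp
    ring
  have hthr := threshold A B W ?_ x
  · rw [hsplit] at hthr
    linarith
  -- the case of 0/1 valued functions
  intro x hx
  rw [hsplit]
  set y : Fin m → ℝ := fun i => x (kZ i) with hy
  have hy01 : ∀ i, y i = 0 ∨ y i = 1 := fun i => hx _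
  set k : ℝ := ∑ i, y i with hk
  have hk0 : 0 ≤ k := Finset.sum_nonneg fun i _ => by
    rcases hy01 i with h | h <;> rw [h] <;> norm_num
  have hk1 : k ≤ m := by
    have : ∑ i, y i ≤ ∑ _i : Fin m, (1 : ℝ) := Finset.sum_le_sum fun i _ => by
      rcases hy01 i with h | h <;> rw [h] <;> norm_num
    simpa using this
  set p : ℝ := k / m with hp
  have hp0 : 0 ≤ p := div_nonneg hk0 hm'.le
  have hp1 : p ≤ 1 := (div_le_one hm').mpr hk1
  have hkp : k = p * m := by rw [hp]; field_simp
  have hs := hx (inr false)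
  have ht := hx (inr true)
  have hb := hx (kTop m false)
  have hc := hx (kTop m true)
  have hpoly := poly_ineq hs ht hb hc hp0 hp1
  -- expand the sums
  have hD : ∑ j, (kGadget m).D j * |x ((kGadget m).pa j) - x ((kGadget m).pb j)|
      = (2 * aK / 5) * (p * (1 - p)) + (1 / 5) * |x (kTop m false) - x (kTop m true)| := by
    change ∑ j : (Fin m × Fin m) ⊕ Unit, _ = _
    rw [Fintype.sum_sum_type]
    congr 1
    · change ∑ q : Fin m × Fin m, (2 * aK / 5) / (2 * (m : ℝ) ^ 2) * |y q.1 - y q.2| = _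
      rw [← Finset.mul_sum, sum_abs_pairs y hy01]
      rw [← hk, hkp]
      field_simp
    · simp [kGadget]
  have hE : ∑ e, (kGadget m).κ e * |x ((kGadget m).u e) - x ((kGadget m).v e)|
      = (1 + (2 / 5) * (3 - aK)) * (x (inr false) + p - 2 * x (inr false) * p)
        + (7 / 10) * ((p + x (kTop m false) - 2 * p * x (kTop m false))
          + (p + x (kTop m true) - 2 * p * x (kTop m true)))
        + (1 / 2) * ((x (kTop m false) + x (inr true) - 2 * x (kTop m false) * x (inr true))
          + (x (kTop m true) + x (inr true) - 2 * x (kTop m true) * x (inr true))) := by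
    change ∑ e : Fin m ⊕ ((Fin m × Bool) ⊕ Bool), _ = _
    rw [Fintype.sum_sum_type, Fintype.sum_sum_type, Fintype.sum_prod_type]
    have h1 : ∑ i : Fin m, (1 + (2 / 5) * (3 - aK)) / m * |x (inr false) - y i|
        = (1 + (2 / 5) * (3 - aK)) * (x (inr false) + p - 2 * x (inr false) * p) := by
      rw [← Finset.mul_sum, sum_abs_const y hy01 _ hs, ← hk, hkp]
      field_simp
    have h2 : ∀ β : Bool, ∑ i : Fin m, (7 / 10) / m * |y i - x (kTop m β)|
        = (7 / 10) * (p + x (kTop m β) - 2 * p * x (kTop m β)) := by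
      intro β
      have hβ := hx (kTop m β)
      have : ∀ i, |y i - x (kTop m β)| = |x (kTop m β) - y i| := fun i => abs_sub_comm _ _
      simp only [this]
      rw [← Finset.mul_sum, sum_abs_const y hy01 _ hβ, ← hk, hkp]
      field_simp
      ring
    have h3 : ∀ β : Bool, |x (kTop m β) - x (inr true)|
        = x (kTop m β) + x (inr true) - 2 * x (kTop m β) * x (inr true) := by
      intro β
      rcases hx (kTop m β) with h | h <;> rcases ht with h' | h' <;> rw [h, h'] <;> norm_num
    change ∑ i : Fin m, (1 + (2 / 5) * (3 - aK)) / m * |x (inr false) - y i|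
      + (∑ i : Fin m, ∑ β : Bool, (7 / 10) / m * |y i - x (kTop m β)|
        + ∑ β : Bool, (1 / 2) * |x (kTop m β) - x (inr true)|) = _
    rw [h1]
    have h4 : ∑ i : Fin m, ∑ β : Bool, (7 / 10) / m * |y i - x (kTop m β)|
        = (7 / 10) * ((p + x (kTop m false) - 2 * p * x (kTop m false))
          + (p + x (kTop m true) - 2 * p * x (kTop m true))) := by
      rw [Finset.sum_comm]
      simp only [Fintype.sum_bool]
      rw [h2, h2]
      ring
    rw [h4]
    simp only [Fintype.sum_bool, h3]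
    ring
  rw [hD, hE]
  linarith [hpoly]

section kBagLemmas

variable {m : ℕ}

lemma kBag_none_s : (inr false : (Bool ⊕ Fin m) ⊕ Bool) ∈ kBag m none := by simp [kBag]
lemma kBag_none_t : (inr true : (Bool ⊕ Fin m) ⊕ Bool) ∈ kBag m none := by simp [kBag]
lemma kBag_none_top (β : Bool) : kTop m β ∈ kBag m none := by cases β <;> simp [kBag]
lemma kBag_some_s (i : Fin m) : (inr false : (Bool ⊕ Fin m) ⊕ Bool) ∈ kBag m (some i) := by
  simp [kBag]
lemma kBag_some_top (i : Fin m) (β : Bool) : kTop m β ∈ kBag m (some i) := by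
  cases β <;> simp [kBag]
lemma kBag_some_z (i : Fin m) : kZ i ∈ kBag m (some i) := by simp [kBag]

lemma kBag_card (t : Option (Fin m)) : (kBag m t).card ≤ 4 := by
  cases t with
  | none => exact Finset.card_le_four
  | some i => exact Finset.card_le_four

lemma kBag_none_cases {a : (Bool ⊕ Fin m) ⊕ Bool} (h : a ∈ kBag m none) :
    a = inr false ∨ a = inr true ∨ a = kTop m false ∨ a = kTop m true := by
  simpa [kBag] using h

lemma kBag_some_cases {i : Fin m} {a : (Bool ⊕ Fin m) ⊕ Bool} (h : a ∈ kBag m (some i)) :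
    a = inr false ∨ a = kTop m false ∨ a = kTop m true ∨ a = kZ i := by
  simpa [kBag] using h

end kBagLemmas

lemma kGadget_good_lt {m : ℕ} (e : (kGadget m).E) :
    (kGadget m).hH ((kGadget m).u e) < (kGadget m).hH ((kGadget m).v e) := by
  rcases e with (i | ⟨i, β⟩ | β)
  · simp [kGadget, kZ]
  · simp [kGadget, kZ, kTop]
    norm_num
  · simp [kGadget, kTop]
    norm_num

lemma kGadget_good {m : ℕ} (hm : 0 < m) : (kGadget m).Good := by
  classical
  have hm' : (0 : ℝ) < m := by exact_mod_cast hm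
  have ha2 := aK_upper
  have ha1 := aK_lower
  have hK : 0 < 1 + (2 / 5) * (3 - aK) := by linarith
  -- abbreviations for the evaluation of the height on the edges
  refine
    { h_s := by simp [kGadget]
      h_t := by simp [kGadget]
      lt := ?_
      κ_nonneg := ?_
      D_nonneg := ?_
      cut := kGadget_cut hm
      pot := ?_
      reach := ?_
      rank_lt := ?_
      mem_top := ?_
      up := ?_
      u_mem := ?_
      v_mem := ?_
      root_s := kBag_none_s
      root_t := kBag_none_t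
      card_le := kBag_card
      rank_le := ?_ }
  · exact kGadget_good_lt
  · rintro (i | ⟨i, β⟩ | β)
    · exact div_nonneg hK.le hm'.le
    · exact div_nonneg (by norm_num) hm'.le
    · change (0 : ℝ) ≤ 1 / 2
      norm_num
  · rintro (p | u)
    · change 0 ≤ (2 * aK / 5) / (2 * (m : ℝ) ^ 2)
      have : 0 ≤ 2 * aK / 5 := by linarith
      positivity
    · change (0 : ℝ) ≤ 1 / 5
      norm_num
  · -- potentials
    rintro (⟨i, j⟩ | u)
    · by_cases hij : i = j
      · refine ⟨fun _ => 0, rfl, rfl, ?_, ?_⟩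
        · intro e
          have := (kGadget_good_lt e)
          simp
          linarith
        · simp [kGadget, hij]
      · -- the bump at two leaves
        let g : (Bool ⊕ Fin m) ⊕ Bool → ℝ :=
          Sum.elim (Sum.elim (fun _ => 0)
            (fun l => if l = i then 1 / 4 else if l = j then - (1 / 4) else 0)) (fun _ => 0)
        have hg : ∀ l, |g (kZ l)| ≤ 1 / 4 := by
          intro l
          simp only [g, kZ, Sum.elim_inl, Sum.elim_inr]
          split_ifs <;> norm_num [abs_of_nonneg]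
        refine ⟨g, rfl, rfl, ?_, ?_⟩
        · rintro (l | ⟨l, β⟩ | β)
          · have := hg l
            simp only [kGadget, Sum.elim_inl, kZ] at this ⊢
            simpa [g, abs_sub_comm] using this
          · have := hg l
            simp only [kGadget, Sum.elim_inl, Sum.elim_inr, kZ, kTop] at this ⊢
            simpa [g] using (by linarith : |g (inl (inr l))| ≤ 1 / 2 - 1 / 4)
          · simp only [kGadget, Sum.elim_inr, kTop]
            simp [g]
            norm_num
        · change (if i = j then (0 : ℝ) else 1 / 2) ≤ g (kZ i) - g (kZ j)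
          simp only [g, kZ, Sum.elim_inl, Sum.elim_inr, hij, if_false, if_true]
          have hji : ¬ j = i := fun h => hij h.symm
          simp only [hji, if_false]
          norm_num
    · -- the bump at the two hubs
      let g : (Bool ⊕ Fin m) ⊕ Bool → ℝ :=
        Sum.elim (Sum.elim (fun β => if β then - (1 / 4) else 1 / 4) (fun _ => 0)) (fun _ => 0)
      have hg : ∀ β, |g (kTop m β)| = 1 / 4 := by
        intro β
        cases β <;> simp [g, kTop, abs_of_nonneg]
      refine ⟨g, rfl, rfl, ?_, ?_⟩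
      · rintro (l | ⟨l, β⟩ | β)
        · simp [kGadget, g, kZ]
        · have := hg β
          simp only [kGadget, Sum.elim_inl, Sum.elim_inr, kZ, kTop] at this ⊢
          simp only [g, Sum.elim_inl, Sum.elim_inr, zero_sub, abs_neg] at this ⊢
          rw [this]
          norm_num
        · have := hg β
          simp only [kGadget, Sum.elim_inl, Sum.elim_inr, kTop] at this ⊢
          simp only [g, Sum.elim_inl, Sum.elim_inr, sub_zero] at this ⊢
          rw [this]
          norm_num
      · change (1 / 2 : ℝ) ≤ g (kTop m false) - g (kTop m true)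
        simp [g, kTop]
        norm_num
  · -- reachability
    have hz : ∀ i : Fin m, Relation.ReflTransGen
        (fun x y => ∃ e, ((kGadget m).u e = x ∧ (kGadget m).v e = y) ∨
          ((kGadget m).u e = y ∧ (kGadget m).v e = x)) (inr false) (kZ i : (kGadget m).Y ⊕ Bool) :=
      fun i => Relation.ReflTransGen.single ⟨inl i, Or.inl ⟨rfl, rfl⟩⟩
    have ht : ∀ β : Bool, Relation.ReflTransGen
        (fun x y => ∃ e, ((kGadget m).u e = x ∧ (kGadget m).v e = y) ∨
          ((kGadget m).u e = y ∧ (kGadget m).v e = x)) (inr false)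
          (kTop m β : (kGadget m).Y ⊕ Bool) :=
      fun β => (hz ⟨0, hm⟩).tail ⟨inr (inl (⟨0, hm⟩, β)), Or.inl ⟨rfl, rfl⟩⟩
    rintro ((β | i) | b)
    · exact ht β
    · exact hz i
    · cases b
      · exact Relation.ReflTransGen.refl
      · exact (ht false).tail ⟨inr (inr false), Or.inl ⟨rfl, rfl⟩⟩
  · -- rank
    rintro (_ | i) hne
    · exact (hne rfl).elim
    · simp [kGadget]
  · -- top
    rintro ((β | i) | b)
    · exact kBag_none_top β
    · exact kBag_some_z i
    · cases b
      · exact kBag_none_s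
      · exact kBag_none_t
  · -- climbing
    intro a t ha hne
    rcases t with _ | i
    · exfalso
      apply hne
      rcases kBag_none_cases ha with rfl | rfl | rfl | rfl <;> rfl
    · refine ⟨by simp [kGadget], ?_⟩
      rcases kBag_some_cases ha with rfl | rfl | rfl | rfl
      · exact kBag_none_s
      · exact kBag_none_top _
      · exact kBag_none_top _
      · exact (hne rfl).elim
  · rintro (i | ⟨i, β⟩ | β)
    · exact kBag_some_s i
    · exact kBag_some_z i
    · exact kBag_none_top β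
  · rintro (i | ⟨i, β⟩ | β)
    · exact kBag_some_z i
    · exact kBag_some_top i β
    · exact kBag_none_t
  · intro t
    rcases t with _ | i <;> simp [kGadget]

lemma kGadget_gain {m : ℕ} (hm : 0 < m) : (kGadget m).gain = (14 - aK) / 10 := by
  have hm' : (m : ℝ) ≠ 0 := by exact_mod_cast hm.ne'
  unfold Gadget.gain
  change ∑ e : Fin m ⊕ ((Fin m × Bool) ⊕ Bool), _ = _
  rw [Fintype.sum_sum_type, Fintype.sum_sum_type, Fintype.sum_prod_type]
  simp [kGadget, kZ, kTop]
  field_simp
  ring

lemma sum_off_diag (m : ℕ) :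
    ∑ q : Fin m × Fin m, (if q.1 = q.2 then (0 : ℝ) else 1 / 2) = ((m : ℝ) ^ 2 - m) / 2 := by
  rw [Fintype.sum_prod_type]
  have h : ∀ i : Fin m, ∑ j : Fin m, (if i = j then (0 : ℝ) else 1 / 2) = ((m : ℝ) - 1) / 2 := by
    intro i
    have h1 : ∀ j : Fin m, (if i = j then (0 : ℝ) else 1 / 2)
        = 1 / 2 - (if i = j then (1 / 2 : ℝ) else 0) := by
      intro j
      split_ifs <;> norm_num
    simp only [h1]
    rw [Finset.sum_sub_distrib]
    simp
    ring
  simp only [h]
  simp
  ring

lemma kGadget_base {m : ℕ} (hm : 0 < m) :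
    (kGadget m).base = (aK / 10) * (1 - 1 / m) + 1 / 10 := by
  have hm' : (m : ℝ) ≠ 0 := by exact_mod_cast hm.ne'
  unfold Gadget.base
  change ∑ j : (Fin m × Fin m) ⊕ Unit, _ = _
  rw [Fintype.sum_sum_type]
  have h1 : ∑ q : Fin m × Fin m, (kGadget m).D (inl q) * (kGadget m).ε (inl q)
      = (2 * aK / 5) / (2 * (m : ℝ) ^ 2) * (((m : ℝ) ^ 2 - m) / 2) := by
    rw [← sum_off_diag, Finset.mul_sum]
    rfl
  rw [h1]
  simp [kGadget]
  field_simp
  ring

/-- For every `C < (3 + √5) / 2` there is a good network whose demand value exceeds `C` times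
its volume. -/
lemma exists_good_net {C : ℝ} (hC : C < aK) : ∃ N : Net, N.Good ∧ C * N.volume < N.demandValue := by
  have ha1 := aK_lower
  have ha2 := aK_upper
  have ha3 := aK_sq
  have hη : 0 < (aK - C) * (4 - aK) := mul_pos (by linarith) (by linarith)
  obtain ⟨m0, hm0⟩ := exists_nat_gt (aK / ((aK - C) * (4 - aK)))
  let m := m0 + 1
  have hm : 0 < m := Nat.succ_pos _
  have hm' : (0 : ℝ) < m := by exact_mod_cast hm
  have hmgt : aK / ((aK - C) * (4 - aK)) < m := by
    have : (m0 : ℝ) < m := by simp [m]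
    linarith
  have hmul : aK / m < (aK - C) * (4 - aK) := by
    rw [div_lt_iff₀ hm']
    rw [div_lt_iff₀ hη] at hmgt
    linarith
  apply Gadget.exists_net (kGadget_good hm)
  · rw [kGadget_gain hm]
    linarith
  · rw [kGadget_gain hm, kGadget_base hm]
    have h2 : aK * (1 / (m : ℝ)) = aK / m := by ring
    nlinarith

end Vale.Agent.Lib.P235
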