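import Vale.Agent.Lib.P235.Defs

namespace Vale.Agent.Lib.P235

universe u

/-- A rooted form of a tree decomposition of width at most `k`: bags indexed by a finite rooted
tree given by parent pointers with a decreasing rank; every vertex `v` has a top node `top v`, and
from any node containing `v` one stays in the bags containing `v` when climbing up to `top v`. -/
structure RootedDecomp {V : Type u} (G : SimpleGraph V) (k : ℕ) where
  T : Type u
  fT : Fintype T
  root : T
  parent : T → T
  rank : T → ℕ
  bag : T → Finset V
  rank_lt : ∀ t, t ≠ root → rank (parent t) < rank t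
  top : V → T
  mem_top : ∀ v, v ∈ bag (top v)
  up : ∀ v t, v ∈ bag t → t ≠ top v → t ≠ root ∧ v ∈ bag (parent t)
  edge : ∀ a b, G.Adj a b → ∃ t, a ∈ bag t ∧ b ∈ bag t
  card_le : ∀ t, (bag t).card ≤ k + 1

namespace RootedDecomp

variable {V : Type u} {G : SimpleGraph V} {k : ℕ} (D : RootedDecomp G k)

/-- The tree as a simple graph: each non-root node is joined to its parent. -/
def tree : SimpleGraph D.T where
  Adj a b := (a ≠ D.root ∧ D.parent a = b) ∨ (b ≠ D.root ∧ D.parent b = a)
  symm := ⟨fun a b h => Or.symm h⟩
  loopless := ⟨fun a h => by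
    rcases h with h | h <;>
    · have := D.rank_lt a h.1
      rw [h.2] at this
      exact lt_irrefl _ this⟩

lemma reach_root : ∀ (n : ℕ) (t : D.T), D.rank t ≤ n → D.tree.Reachable t D.root := by
  intro n
  induction n with
  | zero =>
    intro t ht
    by_cases h : t = D.root
    · rw [h]
    · have := D.rank_lt t h
      omega
  | succ n ih =>
    intro t ht
    by_cases h : t = D.root
    · rw [h]
    · have h1 := D.rank_lt t h
      have h2 : D.tree.Adj t (D.parent t) := Or.inl ⟨h, rfl⟩
      exact h2.reachable.trans (ih _ (by omega))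

lemma tree_connected : D.tree.Connected := by
  have : Nonempty D.T := ⟨D.root⟩
  refine ⟨fun a b => ?_⟩
  exact (D.reach_root _ a le_rfl).trans (D.reach_root _ b le_rfl).symm

lemma tree_isTree : D.tree.IsTree := by
  classical
  let _ := D.fT
  rw [SimpleGraph.isTree_iff_connected_and_card]
  refine ⟨D.tree_connected, ?_⟩
  -- bijection between the non-root nodes and the edges
  let F : {t : D.T // t ≠ D.root} → D.tree.edgeSet := fun t =>
    ⟨s(t.1, D.parent t.1), by
      rw [SimpleGraph.mem_edgeSet]
      exact Or.inl ⟨t.2, rfl⟩⟩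
  have hF : Function.Bijective F := by
    constructor
    · intro a b hab
      have h := congrArg Subtype.val hab
      simp only [F, Sym2.eq_iff] at h
      rcases h with h | h
      · exact Subtype.ext h.1
      · exfalso
        have h1 := D.rank_lt a.1 a.2
        have h2 := D.rank_lt b.1 b.2
        rw [h.2] at h1
        rw [← h.1] at h2
        omega
    · rintro ⟨e, he⟩
      induction e using Sym2.ind with
      | _ a b =>
        rw [SimpleGraph.mem_edgeSet] at he
        rcases he with h | h
        · refine ⟨⟨a, h.1⟩, ?_⟩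
          apply Subtype.ext
          simp [F, h.2]
        · refine ⟨⟨b, h.1⟩, ?_⟩
          apply Subtype.ext
          simp [F, h.2, Sym2.eq_swap]
  have h1 : Nat.card D.tree.edgeSet = Nat.card {t : D.T // t ≠ D.root} :=
    (Nat.card_eq_of_bijective F hF).symm
  rw [h1]
  rw [Nat.card_eq_fintype_card, Nat.card_eq_fintype_card, Fintype.card_subtype_compl]
  have h2 : Fintype.card D.T ≥ 1 := Fintype.card_pos_iff.mpr ⟨D.root⟩
  have h3 : Fintype.card {x // x = D.root} = 1 := Fintype.card_unique
  rw [h3]
  omega

lemma induce_connected (v : V) : (D.tree.induce {t | v ∈ D.bag t}).Connected := by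
  classical
  have key : ∀ (n : ℕ) (t : D.T) (ht : v ∈ D.bag t), D.rank t ≤ n →
      (D.tree.induce {t | v ∈ D.bag t}).Reachable ⟨t, ht⟩ ⟨D.top v, D.mem_top v⟩ := by
    intro n
    induction n with
    | zero =>
      intro t ht hr
      by_cases h : t = D.top v
      · subst h; exact SimpleGraph.Reachable.refl _
      · have h1 := D.up v t ht h
        have := D.rank_lt t h1.1
        omega
    | succ n ih =>
      intro t ht hr
      by_cases h : t = D.top v
      · subst h; exact SimpleGraph.Reachable.refl _
      · have h1 := D.up v t ht h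
        have h2 := D.rank_lt t h1.1
        have h3 : (D.tree.induce {t | v ∈ D.bag t}).Adj ⟨t, ht⟩ ⟨D.parent t, h1.2⟩ := by
          simp only [SimpleGraph.comap_adj, Function.Embedding.subtype_apply]
          exact Or.inl ⟨h1.1, rfl⟩
        exact h3.reachable.trans (ih _ h1.2 (by omega))
  have : Nonempty {t | v ∈ D.bag t} := ⟨⟨D.top v, D.mem_top v⟩⟩
  refine ⟨fun a b => ?_⟩
  exact (key _ a.1 a.2 le_rfl).trans (key _ b.1 b.2 le_rfl).symm

theorem treewidthLE (D : RootedDecomp G k) : TreewidthLE G k :=
  ⟨D.T, @Finite.of_fintype _ D.fT, D.tree, D.bag, D.tree_isTree, D.edge, D.induce_connected,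
    D.card_le⟩

end RootedDecomp

end Vale.Agent.Lib.P235
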