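import Vale.Agent.Lib.P235.Basic
import Vale.Agent.Lib.P235.Rooted

open Sum

namespace Vale.Agent.Lib.P235

/-- A two-terminal network: vertices `X ⊕ Bool`, terminals `inr false` and `inr true`; a height
function `h` giving the edge lengths `|h a - h b|`; capacities `c` on the pairs `(ca i, cb i)`;
demands `w` on the pairs `(da j, db j)` with lower bounds `δ` for their distances. -/
structure Net where
  X : Type
  fX : Fintype X
  I : Type
  fI : Fintype I
  J : Type
  fJ : Fintype J
  G : SimpleGraph (X ⊕ Bool)
  h : X ⊕ Bool → ℝ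
  ca : I → X ⊕ Bool
  cb : I → X ⊕ Bool
  c : I → ℝ
  da : J → X ⊕ Bool
  db : J → X ⊕ Bool
  w : J → ℝ
  δ : J → ℝ

attribute [instance] Net.fX Net.fI Net.fJ

/-- The invariants of a two-terminal network. -/
structure Net.Good (N : Net) : Prop where
  h_s : N.h (inr false) = 0
  h_t : N.h (inr true) = 1
  adj_ne : ∀ a b, N.G.Adj a b → N.h a ≠ N.h b
  conn : N.G.Connected
  c_nonneg : ∀ i, 0 ≤ N.c i
  w_nonneg : ∀ j, 0 ≤ N.w j
  c_adj : ∀ i, N.G.Adj (N.ca i) (N.cb i)
  cut : ∀ x : N.X ⊕ Bool → ℝ,
    ∑ j, N.w j * |x (N.da j) - x (N.db j)| + |x (inr false) - x (inr true)|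
      ≤ ∑ i, N.c i * |x (N.ca i) - x (N.cb i)|
  pot : ∀ j, ∃ g : N.X ⊕ Bool → ℝ, g (inr false) = 0 ∧ g (inr true) = 0 ∧
    (∀ a b, N.G.Adj a b → |g a - g b| ≤ |N.h a - N.h b|) ∧ N.δ j ≤ g (N.da j) - g (N.db j)
  tree : ∃ D : RootedDecomp N.G 3, inr false ∈ D.bag D.root ∧ inr true ∈ D.bag D.root

/-- Total demand times distance lower bound. -/
noncomputable def Net.demandValue (N : Net) : ℝ := ∑ j, N.w j * N.δ j

/-- Total capacity times length. -/
noncomputable def Net.volume (N : Net) : ℝ := ∑ i, N.c i * |N.h (N.ca i) - N.h (N.cb i)|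

/-- The edge lengths of a network. -/
noncomputable def Net.len (N : Net) : Sym2 (N.X ⊕ Bool) → ℝ :=
  Sym2.lift ⟨fun a b => |N.h a - N.h b|, fun _ _ => abs_sub_comm _ _⟩

@[simp] lemma Net.len_mk (N : Net) (a b : N.X ⊕ Bool) : N.len s(a, b) = |N.h a - N.h b| := rfl

lemma Net.Good.len_pos {N : Net} (hN : N.Good) : ∀ e ∈ N.G.edgeSet, 0 < N.len e := by
  intro e
  induction e using Sym2.ind with
  | _ a b =>
    intro he
    rw [SimpleGraph.mem_edgeSet] at he
    rw [Net.len_mk]
    exact abs_pos.mpr (sub_ne_zero.mpr (hN.adj_ne a b he))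

/-- If the demand value exceeds `C` times the volume, there is no embedding of distortion `C`. -/
theorem Net.Good.not_embeds.{v} {N : Net} (hN : N.Good) {C : ℝ} (hC : 0 ≤ C)
    (hval : C * N.volume < N.demandValue) :
    ¬ EmbedsL1.{0, v} (pathMetric N.G N.len) C := by
  rintro ⟨Ω, mΩ, μ, f, hf⟩
  have hpos := hN.len_pos
  -- step 1: the cut inequality passes to L1
  have h1 : ∑ j, N.w j * ‖f (N.da j) - f (N.db j)‖ ≤ ∑ i, N.c i * ‖f (N.ca i) - f (N.cb i)‖ := by
    refine L1_test f N.ca N.cb N.c N.da N.db N.w ?_
    intro x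
    have := hN.cut x
    have h2 := abs_nonneg (x (inr false) - x (inr true))
    linarith
  -- step 2: lower bound on the left
  have h2 : N.demandValue ≤ ∑ j, N.w j * ‖f (N.da j) - f (N.db j)‖ := by
    refine Finset.sum_le_sum fun j _ => ?_
    apply mul_le_mul_of_nonneg_left _ (hN.w_nonneg j)
    obtain ⟨g, -, -, hg, hδ⟩ := hN.pot j
    have := le_pathMetric_of_lipschitz hN.conn N.len g
      (fun a b hab => by simpa using hg a b hab) (N.da j) (N.db j)
    have h3 := (hf (N.da j) (N.db j)).1
    linarith
  -- step 3: upper bound on the right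
  have h3 : ∑ i, N.c i * ‖f (N.ca i) - f (N.cb i)‖ ≤ C * N.volume := by
    unfold Net.volume
    rw [Finset.mul_sum]
    refine Finset.sum_le_sum fun i _ => ?_
    have h4 := (hf (N.ca i) (N.cb i)).2
    have h5 := pathMetric_le_edge N.len hpos (hN.c_adj i)
    rw [Net.len_mk] at h5
    have h6 : ‖f (N.ca i) - f (N.cb i)‖ ≤ C * |N.h (N.ca i) - N.h (N.cb i)| :=
      h4.trans (mul_le_mul_of_nonneg_left h5 hC)
    calc N.c i * ‖f (N.ca i) - f (N.cb i)‖ ≤ N.c i * (C * |N.h (N.ca i) - N.h (N.cb i)|) :=
          mul_le_mul_of_nonneg_left h6 (hN.c_nonneg i)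
      _ = C * (N.c i * |N.h (N.ca i) - N.h (N.cb i)|) := by ring
  linarith

/-! ### The base network: a single edge -/

/-- The single edge between the two terminals. -/
noncomputable def baseNet : Net where
  X := Empty
  fX := inferInstance
  I := Unit
  fI := inferInstance
  J := Empty
  fJ := inferInstance
  G := ⊤
  h := Sum.elim Empty.elim (fun b => if b then 1 else 0)
  ca := fun _ => inr false
  cb := fun _ => inr true
  c := fun _ => 1
  da := Empty.elim
  db := Empty.elim
  w := Empty.elim
  δ := Empty.elim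

lemma baseNet_good : baseNet.Good where
  h_s := by simp [baseNet]
  h_t := by simp [baseNet]
  adj_ne := by
    rintro (a | a) (b | b) hab
    · exact a.elim
    · exact a.elim
    · exact b.elim
    · have hne : a ≠ b := by
        intro h
        subst h
        exact (SimpleGraph.top_adj _ _).mp hab rfl
      cases a <;> cases b <;> simp_all [baseNet]
  conn := by
    have : Nonempty (baseNet.X ⊕ Bool) := ⟨inr false⟩
    exact SimpleGraph.connected_top
  c_nonneg := by intro i; simp [baseNet]
  w_nonneg := by intro j; exact j.elim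
  c_adj := by
    intro i
    exact (SimpleGraph.top_adj _ _).mpr (by simp [baseNet])
  cut := by
    intro x
    change ∑ j : Empty, (Empty.elim j : ℝ) * |x (Empty.elim j) - x (Empty.elim j)|
        + |x (inr false) - x (inr true)| ≤ ∑ _i : Unit, (1 : ℝ) * |x (inr false) - x (inr true)|
    simp
  pot := by intro j; exact j.elim
  tree := by
    classical
    refine ⟨{ T := Unit
              fT := inferInstance
              root := ()
              parent := fun _ => ()
              rank := fun _ => 0
              bag := fun _ => {inr false, inr true}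
              rank_lt := fun t ht => (ht rfl).elim
              top := fun _ => ()
              mem_top := ?_
              up := fun v t _ ht => (ht rfl).elim
              edge := ?_
              card_le := ?_ }, ?_, ?_⟩
    · rintro (a | a)
      · exact a.elim
      · cases a <;> simp
    · rintro (a | a) (b | b) hab
      · exact a.elim
      · exact a.elim
      · exact b.elim
      · refine ⟨(), ?_, ?_⟩ <;> [cases a; cases b] <;> simp
    · intro t
      exact (Finset.card_le_two).trans (by norm_num)
    · simp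
    · simp

lemma baseNet_demandValue : baseNet.demandValue = 0 := by
  change ∑ j : Empty, (Empty.elim j : ℝ) * (Empty.elim j : ℝ) = 0
  simp

lemma baseNet_volume : baseNet.volume = 1 := by
  change ∑ _i : Unit, (1 : ℝ) * |baseNet.h (inr false) - baseNet.h (inr true)| = 1
  simp [baseNet]

end Vale.Agent.Lib.P235
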